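import Vale.Agent.Lib.P335_helper3.GBasic
import Vale.Agent.Lib.P335_helper3.Grid

/-!
P335 (helper2): off the sector `|block| = 2` the two collisions of disjoint pairs commute
(rectangle completion with an explicit block).
-/

set_option linter.unusedSectionVars false
set_option linter.unusedVariables false

namespace P335h2

open Finset P335h14 P335G

variable {V : Type*} [Fintype V] [DecidableEq V]


/-- 0/1 indicator of adjacency -/
def ad (x : Finset (Sym2 V)) (a b : V) : ℕ := if s(a, b) ∈ x then 1 else 0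

theorem ad_le_one (x : Finset (Sym2 V)) (a b : V) : ad x a b ≤ 1 := by
  unfold ad; split_ifs <;> simp

theorem ad_comm (x : Finset (Sym2 V)) (a b : V) : ad x a b = ad x b a := by
  unfold ad; rw [Sym2.eq_swap]

theorem mem_iff_of_ad_eq {x y : Finset (Sym2 V)} {a b : V} (h : ad x a b = ad y a b) :
    s(a, b) ∈ x ↔ s(a, b) ∈ y := by
  unfold ad at h
  by_cases h1 : s(a, b) ∈ x <;> by_cases h2 : s(a, b) ∈ y <;> simp_all

theorem deg_eq_sum (x : Finset (Sym2 V)) (v : V) : deg x v = ∑ w, ad x v w := by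
  unfold deg ad
  rw [← card_filter]
  symm
  apply card_bij (fun w _ => s(v, w))
  · intro w hw
    simp only [mem_filter, mem_univ, true_and] at hw
    simp [hw]
  · intro a _ b _ h
    exact Sym2.congr_right.mp h
  · intro e he
    simp only [mem_filter] at he
    obtain ⟨w, rfl⟩ := Sym2.mem_iff_exists.mp he.2
    exact ⟨w, by simp [he.1], rfl⟩

theorem grelEquiv (A : Finset (Sym2 V)) : Equivalence (GRel A) where
  refl x := ⟨rfl, fun _ => rfl⟩
  symm h := ⟨h.1.symm, fun v => (h.2 v).symm⟩
  trans h h' := ⟨h.1.trans h'.1, fun v => (h.2 v).trans (h'.2 v)⟩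

theorem gmem_iff {A : Finset (Sym2 V)} {x y : Finset (Sym2 V)} (hr : GRel A x y) {e : Sym2 V}
    (he : e ∉ A) : e ∈ x ↔ e ∈ y := by
  have := congrArg (fun s => e ∈ s) hr.1
  simp only [mem_sdiff, eq_iff_iff] at this
  constructor
  · intro h; exact (this.mp ⟨h, he⟩).1
  · intro h; exact (this.mpr ⟨h, he⟩).1

theorem gad_eq {A : Finset (Sym2 V)} {x y : Finset (Sym2 V)} (hr : GRel A x y) {a b : V}
    (he : s(a, b) ∉ A) : ad x a b = ad y a b := by
  unfold ad; simp only [gmem_iff hr he]

theorem grel_of_mem_iff {A : Finset (Sym2 V)} {x y : Finset (Sym2 V)}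
    (h : ∀ e, e ∉ A → (e ∈ x ↔ e ∈ y)) (hd : ∀ v, deg x v = deg y v) : GRel A x y := by
  refine ⟨?_, hd⟩
  ext e
  simp only [mem_sdiff]
  constructor
  · rintro ⟨h1, h2⟩; exact ⟨(h e h2).mp h1, h2⟩
  · rintro ⟨h1, h2⟩; exact ⟨(h e h2).mpr h1, h2⟩

/-- degree sums over a part agree -/
theorem sum_ad_eq {x y : Finset (Sym2 V)} {z : V} (T : Finset V) (hdeg : deg x z = deg y z)
    (hag : ∀ w, w ∉ T → ad x z w = ad y z w) :
    ∑ w ∈ T, ad x z w = ∑ w ∈ T, ad y z w := by
  rw [deg_eq_sum, deg_eq_sum, ← sum_add_sum_compl T, ← sum_add_sum_compl T (fun w => ad y z w)] at hdeg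
  have : ∑ w ∈ Tᶜ, ad x z w = ∑ w ∈ Tᶜ, ad y z w :=
    sum_congr rfl (fun w hw => hag w (by simpa using hw))
  omega

/-- degrees agree if the sums over `T` agree and the entries outside `T` agree -/
theorem deg_eq_of_parts {x y : Finset (Sym2 V)} {z : V} (T : Finset V)
    (hT : ∑ w ∈ T, ad x z w = ∑ w ∈ T, ad y z w)
    (hag : ∀ w, w ∉ T → ad x z w = ad y z w) : deg x z = deg y z := by
  rw [deg_eq_sum, deg_eq_sum, ← sum_add_sum_compl T, ← sum_add_sum_compl T (fun w => ad y z w), hT]
  congr 1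
  exact sum_congr rfl (fun w hw => hag w (by simpa using hw))

theorem mem_touch {u v a b : V} :
    s(a, b) ∈ touch u v ↔ a ≠ b ∧ (u = a ∨ u = b ∨ v = a ∨ v = b) := by
  simp [touch, or_assoc, and_comm]

/-- the two entries of a column outside the pair have an invariant sum -/
theorem col_sum_inv {u v : V} (huv : u ≠ v) {x y : Finset (Sym2 V)} (h : GRel (touch u v) x y) {c : V}
    (hcu : c ≠ u) (hcv : c ≠ v) : ad x c u + ad x c v = ad y c u + ad y c v := by
  have := sum_ad_eq (x := x) (y := y) (z := c) {u, v} (h.2 c) (by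
    intro w hw
    simp only [mem_insert, mem_singleton, not_or] at hw
    apply gad_eq h
    rw [mem_touch]
    rintro ⟨_, h1 | h1 | h1 | h1⟩
    · exact hcu h1.symm
    · exact hw.1 h1.symm
    · exact hcv h1.symm
    · exact hw.2 h1.symm)
  rwa [sum_pair huv, sum_pair huv] at this



/-- number of edges in the block `{u,v} x {p,q}` -/
def bc (u v p q : V) (x : Finset (Sym2 V)) : ℕ := ad x u p + ad x u q + ad x v p + ad x v q

/-- four distinct vertices -/
structure D4 (u v p q : V) : Prop where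
  uv : u ≠ v
  up : u ≠ p
  uq : u ≠ q
  vp : v ≠ p
  vq : v ≠ q
  pq : p ≠ q

theorem bc_inv_left {u v p q : V} (h : D4 u v p q) {x y : Finset (Sym2 V)} (hr : GRel (touch u v) x y) :
    bc u v p q x = bc u v p q y := by
  have h1 := col_sum_inv h.uv hr (c := p) h.up.symm h.vp.symm
  have h2 := col_sum_inv h.uv hr (c := q) h.uq.symm h.vq.symm
  unfold bc
  rw [ad_comm x u p, ad_comm x u q, ad_comm x v p, ad_comm x v q,
    ad_comm y u p, ad_comm y u q, ad_comm y v p, ad_comm y v q]
  omega

theorem bc_inv_right {u v p q : V} (h : D4 u v p q) {x y : Finset (Sym2 V)} (hr : GRel (touch p q) x y) :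
    bc u v p q x = bc u v p q y := by
  have h1 := col_sum_inv h.pq hr (c := u) h.up h.uq
  have h2 := col_sum_inv h.pq hr (c := v) h.vp h.vq
  unfold bc
  omega

/-- the entry rule of the completed block -/
def Bent (u v p q : V) (y z : Finset (Sym2 V)) (a c : V) : Prop :=
  bc u v p q y + 3 ≤ 2 * ((ad y a p + ad y a q) + (ad z u c + ad z v c))

instance (u v p q : V) (y z : Finset (Sym2 V)) (a c : V) : Decidable (Bent u v p q y z a c) := by
  unfold Bent; infer_instance

/-- rectangle completion: `y` on the slots of `{u,v}` outside the block, `z` off the slots of `{u,v}`,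
the block with the row sums of `y` and the column sums of `z` -/
def glue (u v p q : V) (y z : Finset (Sym2 V)) : Finset (Sym2 V) :=
  univ.filter (fun e => if e ∈ touch u v then
      (if e ∈ touch p q then
        (∃ a ∈ ({u, v} : Finset V), ∃ c ∈ ({p, q} : Finset V), e = s(a, c) ∧ Bent u v p q y z a c)
       else e ∈ y)
    else e ∈ z)

theorem arith_row (ρ ρ' σ σ' t : ℕ) (hρ : ρ + ρ' = t) (hσ : σ + σ' = t) (h1 : ρ ≤ 2) (h2 : ρ' ≤ 2)
    (h3 : σ ≤ 2) (h4 : σ' ≤ 2) (ht : t ≠ 2) :
    (if t + 3 ≤ 2 * (ρ + σ) then 1 else 0) + (if t + 3 ≤ 2 * (ρ + σ') then 1 else 0) = ρ := by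
  split_ifs <;> omega

theorem ad_glue_block {u v p q : V} (h : D4 u v p q) (y z : Finset (Sym2 V)) {a c : V}
    (ha : a = u ∨ a = v) (hc : c = p ∨ c = q) :
    ad (glue u v p q y z) a c = if Bent u v p q y z a c then 1 else 0 := by
  have hac : a ≠ c := by
    rcases ha with rfl | rfl <;> rcases hc with rfl | rfl
    · exact h.up
    · exact h.uq
    · exact h.vp
    · exact h.vq
  have h1 : s(a, c) ∈ touch u v := by
    rw [mem_touch]; refine ⟨hac, ?_⟩
    rcases ha with rfl | rfl <;> simp
  have h2 : s(a, c) ∈ touch p q := by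
    rw [mem_touch]; refine ⟨hac, ?_⟩
    rcases hc with rfl | rfl <;> simp
  unfold ad glue
  simp only [mem_filter, mem_univ, true_and, h1, h2, if_true]
  congr 1
  apply propext
  constructor
  · rintro ⟨a', ha', c', hc', he, hB⟩
    simp only [mem_insert, mem_singleton] at ha' hc'
    rw [Sym2.eq_iff] at he
    rcases he with ⟨rfl, rfl⟩ | ⟨rfl, rfl⟩
    · exact hB
    · exfalso
      rcases ha with rfl | rfl <;> rcases hc' with h' | h'
      · exact h.up h'
      · exact h.uq h'
      · exact h.vp h'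
      · exact h.vq h'
  · intro hB
    exact ⟨a, by simpa using ha, c, by simpa using hc, rfl, hB⟩


theorem mem_glue_off_left {u v p q : V} (y z : Finset (Sym2 V)) {e : Sym2 V} (he : e ∉ touch u v) :
    e ∈ glue u v p q y z ↔ e ∈ z := by
  simp [glue, he]

theorem mem_glue_left_only {u v p q : V} (y z : Finset (Sym2 V)) {e : Sym2 V} (he : e ∈ touch u v)
    (he' : e ∉ touch p q) : e ∈ glue u v p q y z ↔ e ∈ y := by
  simp [glue, he, he']

/-- hypotheses of the completion -/
structure Corner (u v p q : V) (x y z : Finset (Sym2 V)) : Prop where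
  d4 : D4 u v p q
  xy : GRel (touch u v) x y
  xz : GRel (touch p q) x z
  odd : bc u v p q x ≠ 2

theorem Corner.yz_off {u v p q : V} {x y z : Finset (Sym2 V)} (h : Corner u v p q x y z) {e : Sym2 V}
    (h1 : e ∉ touch u v) (h2 : e ∉ touch p q) : e ∈ y ↔ e ∈ z :=
  (gmem_iff h.xy h1).symm.trans (gmem_iff h.xz h2)

theorem Corner.glue_off_right {u v p q : V} {x y z : Finset (Sym2 V)} (h : Corner u v p q x y z)
    {e : Sym2 V} (he : e ∉ touch p q) : e ∈ glue u v p q y z ↔ e ∈ y := by
  by_cases h1 : e ∈ touch u v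
  · exact mem_glue_left_only y z h1 he
  · rw [mem_glue_off_left y z h1]; exact (h.yz_off h1 he).symm

theorem Corner.row {u v p q : V} {x y z : Finset (Sym2 V)} (h : Corner u v p q x y z) {a : V}
    (ha : a = u ∨ a = v) :
    ad (glue u v p q y z) a p + ad (glue u v p q y z) a q = ad y a p + ad y a q := by
  rw [ad_glue_block h.d4 y z ha (Or.inl rfl), ad_glue_block h.d4 y z ha (Or.inr rfl)]
  have hy := bc_inv_left h.d4 h.xy
  have hz := bc_inv_right h.d4 h.xz
  have ho := h.odd
  unfold Bent
  have b1 := ad_le_one y u p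
  have b2 := ad_le_one y u q
  have b3 := ad_le_one y v p
  have b4 := ad_le_one y v q
  have c1 := ad_le_one z u p
  have c2 := ad_le_one z u q
  have c3 := ad_le_one z v p
  have c4 := ad_le_one z v q
  rcases ha with rfl | rfl
  · exact arith_row _ (ad y v p + ad y v q) _ _ _ (by unfold bc; omega) (by unfold bc at *; omega)
      (by omega) (by omega) (by omega) (by omega) (by omega)
  · exact arith_row _ (ad y u p + ad y u q) _ _ _ (by unfold bc; omega) (by unfold bc at *; omega)
      (by omega) (by omega) (by omega) (by omega) (by omega)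

theorem arith_col (ρ ρ' σ σ' t : ℕ) (hρ : ρ + ρ' = t) (hσ : σ + σ' = t) (h1 : ρ ≤ 2) (h2 : ρ' ≤ 2)
    (h3 : σ ≤ 2) (h4 : σ' ≤ 2) (ht : t ≠ 2) :
    (if t + 3 ≤ 2 * (ρ + σ) then 1 else 0) + (if t + 3 ≤ 2 * (ρ' + σ) then 1 else 0) = σ := by
  split_ifs <;> omega

theorem Corner.col {u v p q : V} {x y z : Finset (Sym2 V)} (h : Corner u v p q x y z) {c : V}
    (hc : c = p ∨ c = q) :
    ad (glue u v p q y z) u c + ad (glue u v p q y z) v c = ad z u c + ad z v c := by
  rw [ad_glue_block h.d4 y z (Or.inl rfl) hc, ad_glue_block h.d4 y z (Or.inr rfl) hc]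
  have hy := bc_inv_left h.d4 h.xy
  have hz := bc_inv_right h.d4 h.xz
  have ho := h.odd
  unfold Bent
  have b1 := ad_le_one y u p
  have b2 := ad_le_one y u q
  have b3 := ad_le_one y v p
  have b4 := ad_le_one y v q
  have c1 := ad_le_one z u p
  have c2 := ad_le_one z u q
  have c3 := ad_le_one z v p
  have c4 := ad_le_one z v q
  rcases hc with rfl | rfl
  · exact arith_col _ _ _ (ad z u q + ad z v q) _ (by unfold bc; omega) (by unfold bc at *; omega)
      (by omega) (by omega) (by omega) (by omega) (by omega)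
  · exact arith_col _ _ _ (ad z u p + ad z v p) _ (by unfold bc; omega) (by unfold bc at *; omega)
      (by omega) (by omega) (by omega) (by omega) (by omega)


theorem ad_eq_of_mem_iff {x y : Finset (Sym2 V)} {a b : V} (h : s(a, b) ∈ x ↔ s(a, b) ∈ y) :
    ad x a b = ad y a b := by
  unfold ad; simp only [h]

theorem not_mem_touch {u v a b : V} (h1 : a ≠ u) (h2 : a ≠ v) (h3 : b ≠ u) (h4 : b ≠ v) :
    s(a, b) ∉ touch u v := by
  rw [mem_touch]
  rintro ⟨_, h | h | h | h⟩
  · exact h1 h.symm
  · exact h3 h.symm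
  · exact h2 h.symm
  · exact h4 h.symm

theorem Corner.deg_glue_left {u v p q : V} {x y z : Finset (Sym2 V)} (h : Corner u v p q x y z) {a : V}
    (ha : a = u ∨ a = v) : deg (glue u v p q y z) a = deg y a := by
  have hap : a ≠ p := by rcases ha with rfl | rfl; exact h.d4.up; exact h.d4.vp
  have haq : a ≠ q := by rcases ha with rfl | rfl; exact h.d4.uq; exact h.d4.vq
  apply deg_eq_of_parts {p, q}
  · rw [sum_pair h.d4.pq, sum_pair h.d4.pq]; exact h.row ha
  · intro w hw
    simp only [mem_insert, mem_singleton, not_or] at hw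
    exact ad_eq_of_mem_iff (h.glue_off_right (not_mem_touch hap haq hw.1 hw.2))

theorem Corner.deg_glue_right {u v p q : V} {x y z : Finset (Sym2 V)} (h : Corner u v p q x y z) {c : V}
    (hc : c = p ∨ c = q) : deg (glue u v p q y z) c = deg z c := by
  have hcu : c ≠ u := by rcases hc with rfl | rfl; exact h.d4.up.symm; exact h.d4.uq.symm
  have hcv : c ≠ v := by rcases hc with rfl | rfl; exact h.d4.vp.symm; exact h.d4.vq.symm
  apply deg_eq_of_parts {u, v}
  · rw [sum_pair h.d4.uv, sum_pair h.d4.uv, ad_comm _ c u, ad_comm _ c v, ad_comm z c u, ad_comm z c v]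
    exact h.col hc
  · intro w hw
    simp only [mem_insert, mem_singleton, not_or] at hw
    exact ad_eq_of_mem_iff (mem_glue_off_left y z (not_mem_touch hcu hcv hw.1 hw.2))

theorem Corner.deg_glue_other {u v p q : V} {x y z : Finset (Sym2 V)} (h : Corner u v p q x y z) {s : V}
    (h1 : s ≠ u) (h2 : s ≠ v) (h3 : s ≠ p) (h4 : s ≠ q) : deg (glue u v p q y z) s = deg z s := by
  apply deg_eq_of_parts {u, v}
  · rw [sum_pair h.d4.uv, sum_pair h.d4.uv]
    have e1 : ad (glue u v p q y z) s u = ad y s u :=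
      ad_eq_of_mem_iff (h.glue_off_right (not_mem_touch h3 h4 h.d4.up h.d4.uq))
    have e2 : ad (glue u v p q y z) s v = ad y s v :=
      ad_eq_of_mem_iff (h.glue_off_right (not_mem_touch h3 h4 h.d4.vp h.d4.vq))
    have e3 : ad x s u = ad z s u := gad_eq h.xz (not_mem_touch h3 h4 h.d4.up h.d4.uq)
    have e4 : ad x s v = ad z s v := gad_eq h.xz (not_mem_touch h3 h4 h.d4.vp h.d4.vq)
    have e5 := col_sum_inv h.d4.uv h.xy h1 h2
    omega
  · intro w hw
    simp only [mem_insert, mem_singleton, not_or] at hw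
    exact ad_eq_of_mem_iff (mem_glue_off_left y z (not_mem_touch h1 h2 hw.1 hw.2))

theorem Corner.deg_glue {u v p q : V} {x y z : Finset (Sym2 V)} (h : Corner u v p q x y z) (s : V) :
    deg (glue u v p q y z) s = deg x s := by
  by_cases h1 : s = u
  · rw [h.deg_glue_left (Or.inl h1), h.xy.2]
  by_cases h2 : s = v
  · rw [h.deg_glue_left (Or.inr h2), h.xy.2]
  by_cases h3 : s = p
  · rw [h.deg_glue_right (Or.inl h3), h.xz.2]
  by_cases h4 : s = q
  · rw [h.deg_glue_right (Or.inr h4), h.xz.2]
  rw [h.deg_glue_other h1 h2 h3 h4, h.xz.2]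

/-- the completion closes the rectangle -/
theorem Corner.rect {u v p q : V} {x y z : Finset (Sym2 V)} (h : Corner u v p q x y z) :
    GRel (touch p q) y (glue u v p q y z) ∧ GRel (touch u v) z (glue u v p q y z) := by
  constructor
  · apply grel_of_mem_iff
    · intro e he; exact (h.glue_off_right he).symm
    · intro s; rw [h.deg_glue, h.xy.2]
  · apply grel_of_mem_iff
    · intro e he; exact (mem_glue_off_left y z he).symm
    · intro s; rw [h.deg_glue, h.xz.2]


theorem block_eq_of_odd {u v p q : V} (h : D4 u v p q) {x y : Finset (Sym2 V)}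
    (h1 : GRel (touch u v) x y) (h2 : GRel (touch p q) x y) (ho : bc u v p q x ≠ 2) :
    ad x u p = ad y u p ∧ ad x u q = ad y u q ∧ ad x v p = ad y v p ∧ ad x v q = ad y v q := by
  have c1 := col_sum_inv h.uv h1 (c := p) h.up.symm h.vp.symm
  have c2 := col_sum_inv h.uv h1 (c := q) h.uq.symm h.vq.symm
  have r1 := col_sum_inv h.pq h2 (c := u) h.up h.uq
  have r2 := col_sum_inv h.pq h2 (c := v) h.vp h.vq
  rw [ad_comm x p u, ad_comm x p v, ad_comm y p u, ad_comm y p v] at c1
  rw [ad_comm x q u, ad_comm x q v, ad_comm y q u, ad_comm y q v] at c2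
  unfold bc at ho
  have b1 := ad_le_one x u p
  have b2 := ad_le_one x u q
  have b3 := ad_le_one x v p
  have b4 := ad_le_one x v q
  have d1 := ad_le_one y u p
  have d2 := ad_le_one y u q
  have d3 := ad_le_one y v p
  have d4 := ad_le_one y v q
  omega

theorem eq_of_odd {u v p q : V} (h : D4 u v p q) {x y : Finset (Sym2 V)}
    (h1 : GRel (touch u v) x y) (h2 : GRel (touch p q) x y) (ho : bc u v p q x ≠ 2) : x = y := by
  obtain ⟨e1, e2, e3, e4⟩ := block_eq_of_odd h h1 h2 ho
  have m1 := mem_iff_of_ad_eq e1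
  have m2 := mem_iff_of_ad_eq e2
  have m3 := mem_iff_of_ad_eq e3
  have m4 := mem_iff_of_ad_eq e4
  ext e
  by_cases ha : e ∈ touch u v
  swap
  · exact gmem_iff h1 ha
  by_cases hb : e ∈ touch p q
  swap
  · exact gmem_iff h2 hb
  induction e with
  | _ a b =>
    rw [mem_touch] at ha hb
    obtain ⟨hab, ha⟩ := ha
    obtain ⟨_, hb⟩ := hb
    have := h.up; have := h.uq; have := h.vp; have := h.vq; have := h.uv; have := h.pq
    rcases ha with rfl | rfl | rfl | rfl <;> rcases hb with rfl | rfl | rfl | rfl <;>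
      first
      | contradiction
      | assumption
      | (rw [Sym2.eq_swap]; assumption)


theorem D4.of_dist4 {u v k l : V} (h : Dist4 u v k l) : D4 u v k l :=
  ⟨h.1, h.2.1, h.2.2.1, h.2.2.2.1, h.2.2.2.2.1, h.2.2.2.2.2⟩

theorem card_block {u v k l : V} (h : D4 u v k l) (x : Finset (Sym2 V)) :
    (x ∩ block u v k l).card = bc u v k l x := by
  have e : x ∩ block u v k l = (block u v k l).filter (fun e => e ∈ x) := by
    ext e; simp only [mem_inter, mem_filter]; tauto
  rw [e, card_filter]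
  unfold block bc ad
  have := h.uv; have := h.up; have := h.uq; have := h.vp; have := h.vq; have := h.pq
  rw [sum_insert, sum_insert, sum_insert, sum_singleton]
  · ring
  · simp only [mem_singleton, Sym2.eq_iff]; tauto
  · simp only [mem_insert, mem_singleton, Sym2.eq_iff]; tauto
  · simp only [mem_insert, mem_singleton, Sym2.eq_iff]; tauto

theorem card_block_inv {u v k l : V} (h : Dist4 u v k l) {x y : St V} (hr : GRel (touch u v) x y) :
    (x ∩ block u v k l).card = (y ∩ block u v k l).card := by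
  rw [card_block (D4.of_dist4 h), card_block (D4.of_dist4 h)]
  exact bc_inv_left (D4.of_dist4 h) hr

theorem card_block_inv' {u v k l : V} (h : Dist4 u v k l) {x y : St V} (hr : GRel (touch k l) x y) :
    (x ∩ block u v k l).card = (y ∩ block u v k l).card := by
  rw [card_block (D4.of_dist4 h), card_block (D4.of_dist4 h)]
  exact bc_inv_right (D4.of_dist4 h) hr

/-- off the sector `|block| = 2` the two collisions commute -/
theorem comm_off_S2' {u v k l : V} (h : Dist4 u v k l) (S : St V → Prop) [DecidablePred S]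
    (hS : ∀ x, S x ↔ (x ∩ block u v k l).card ≠ 2) (f : St V → ℝ) :
    avg (restr S (GRel (touch u v))) (avg (restr S (GRel (touch k l))) f)
      = avg (restr S (GRel (touch k l))) (avg (restr S (GRel (touch u v))) f) := by
  have h4 := D4.of_dist4 h
  have i1 : ∀ x y, GRel (touch u v) x y → (S x ↔ S y) := by
    intro x y hr; rw [hS, hS, card_block_inv h hr]
  have i2 : ∀ x y, GRel (touch k l) x y → (S x ↔ S y) := by
    intro x y hr; rw [hS, hS, card_block_inv' h hr]
  apply avg_comm_of_grid (restr_equiv (grelEquiv _) i1) (restr_equiv (grelEquiv _) i2)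
  · intro x y z hxy hxz
    rcases hxy with ⟨sx, hxy⟩ | rfl
    · rcases hxz with ⟨_, hxz⟩ | rfl
      · have hc : Corner u v k l x y z :=
          ⟨h4, hxy, hxz, by rw [← card_block h4]; exact (hS x).mp sx⟩
        exact ⟨glue u v k l y z, Or.inl ⟨(i1 x y hxy).mp sx, hc.rect.1⟩,
          Or.inl ⟨(i2 x z hxz).mp sx, hc.rect.2⟩⟩
      · exact ⟨y, Or.inr rfl, Or.inl ⟨sx, hxy⟩⟩
    · exact ⟨z, hxz, Or.inr rfl⟩
  · intro x y hxy hxy'
    rcases hxy with ⟨sx, hxy⟩ | rfl
    · rcases hxy' with ⟨_, hxy'⟩ | rfl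
      · exact eq_of_odd h4 hxy hxy' (by rw [← card_block h4]; exact (hS x).mp sx)
      · rfl
    · rfl

end P335h2
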